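import Vale.Agent.P129.CHMain

namespace Vale.Agent.Results.P129.CHCounterexample

theorem result (CH : (Cardinal.continuum : Cardinal.{0}) = Cardinal.aleph 1) (𝕜 : Type)
    [RCLike 𝕜] : ∃ (X : Type) (_ : NormedAddCommGroup X) (_ : NormedSpace 𝕜 X),
      CompleteSpace X ∧ ¬ FiniteDimensional 𝕜 X ∧ ∀ M : Submodule 𝕜 X, IsClosed (M : Set X) →
        TopologicalSpace.SeparableSpace (X ⧸ M) → FiniteDimensional 𝕜 (X ⧸ M) := by
  obtain ⟨X, _, _, h1, h2, h3⟩ := Vale.Agent.P129.exists_counterexample CH 𝕜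
  exact ⟨X, _, _, h1, h2, fun M hM hs => not_not.1 fun h => h3 ⟨M, hM, hs, h⟩⟩

end Vale.Agent.Results.P129.CHCounterexample
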