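import Vale.Agent.P129.Main
import Vale.Agent.P129.CHMain

namespace Vale.Agent.Results.P129.Independence

open MeasureTheory

universe u v

/-- `X` has a separable infinite-dimensional quotient by a closed subspace. -/
def HasSeparableQuotient (𝕜 : Type v) [RCLike 𝕜] (X : Type u) [NormedAddCommGroup X]
    [NormedSpace 𝕜 X] : Prop :=
  ∃ M : Submodule 𝕜 X, IsClosed (M : Set X) ∧ TopologicalSpace.SeparableSpace (X ⧸ M) ∧
    ¬ FiniteDimensional 𝕜 (X ⧸ M)

/-- Some set of size at most the continuum carries a probability measure defined on all of its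
subsets and vanishing on singletons (a real-valued measurable cardinal `≤ 𝔠` exists). -/
def TotalMeasureBelowContinuum : Prop :=
  ∃ (T : Type) (μ : @Measure T ⊤), Cardinal.mk T ≤ Cardinal.continuum ∧ μ Set.univ = 1 ∧
    ∀ t, μ {t} = 0

theorem result :
    ((Cardinal.continuum : Cardinal.{0}) = Cardinal.aleph 1 → ∀ (𝕜 : Type) [RCLike 𝕜],
      ∃ (X : Type) (_ : NormedAddCommGroup X) (_ : NormedSpace 𝕜 X), CompleteSpace X ∧
        ¬ FiniteDimensional 𝕜 X ∧ ¬ HasSeparableQuotient 𝕜 X) ∧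
    (TotalMeasureBelowContinuum → ∀ (𝕜 : Type v) [RCLike 𝕜] (X : Type u) [NormedAddCommGroup X]
      [NormedSpace 𝕜 X] [CompleteSpace X], ¬ FiniteDimensional 𝕜 X → HasSeparableQuotient 𝕜 X) := by
  refine ⟨fun h 𝕜 _ => Vale.Agent.P129.exists_counterexample h 𝕜, ?_⟩
  rintro ⟨T, μ, hT, h1, h0⟩ 𝕜 _ X _ _ _ hX
  let _ : MeasurableSpace T := ⊤
  have : IsProbabilityMeasure μ := ⟨h1⟩
  obtain ⟨ι⟩ : Nonempty (T ↪ ℝ) := (Cardinal.le_def _ _).1 (by rwa [Cardinal.mk_real])
  exact Vale.Agent.P129.hasSepQuot_of_total hX μ h0 ι ι.injective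

end Vale.Agent.Results.P129.Independence
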