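import Vale.Agent.P129.Main
import Mathlib.SetTheory.Cardinal.Continuum
import Mathlib.Analysis.Real.Cardinality

namespace Vale.Agent.Results.P129.MeasurableContinuum

open Cardinal MeasureTheory

universe u v

/-- The density of a topological space: the least cardinality of a dense subset. -/
noncomputable def dens (X : Type u) [TopologicalSpace X] : Cardinal.{u} :=
  sInf {c | ∃ D : Set X, Dense D ∧ #D = c}

/-- `cov(N)`: the least cardinality of a family of Lebesgue null sets covering the real line. -/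
noncomputable def covNull : Cardinal.{0} :=
  sInf {c | ∃ F : Set (Set ℝ), (∀ s ∈ F, volume s = 0) ∧ ⋃₀ F = Set.univ ∧ #F = c}

/-- Some set of size at most the continuum carries a probability measure defined on all of its
subsets and vanishing on singletons (a real-valued measurable cardinal `≤ 𝔠` exists). -/
def TotalMeasureBelowContinuum : Prop :=
  ∃ (T : Type) (μ : @Measure T ⊤), #T ≤ 𝔠 ∧ μ Set.univ = 1 ∧ ∀ t, μ {t} = 0

theorem result (𝕜 : Type v) [RCLike 𝕜] (X : Type u) [NormedAddCommGroup X] [NormedSpace 𝕜 X]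
    [CompleteSpace X] (hX : ¬ FiniteDimensional 𝕜 X)
    (h : TotalMeasureBelowContinuum ∨ dens X < Cardinal.lift.{u} covNull) :
    ∃ M : Submodule 𝕜 X, IsClosed (M : Set X) ∧ TopologicalSpace.SeparableSpace (X ⧸ M) ∧
      ¬ FiniteDimensional 𝕜 (X ⧸ M) := by
  rcases h with ⟨T, μ, hT, h1, h0⟩ | h
  · let _ : MeasurableSpace T := ⊤
    have : IsProbabilityMeasure μ := ⟨h1⟩
    obtain ⟨ι⟩ : Nonempty (T ↪ ℝ) := (Cardinal.le_def _ _).1 (by rwa [Cardinal.mk_real])
    exact Vale.Agent.P129.hasSepQuot_of_total hX μ h0 ι ι.injective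
  · obtain ⟨D, hD, hc⟩ : dens X ∈ {c | ∃ D : Set X, Dense D ∧ #D = c} :=
      csInf_mem ⟨_, Set.univ, dense_univ, rfl⟩
    refine Vale.Agent.P129.hasSepQuot_of_not_cover hX hD fun N hN hU => h.not_ge ?_
    have h1 : covNull ≤ #(Set.range N) := csInf_le' ⟨_, by rintro _ ⟨x, rfl⟩; exact hN x, hU, rfl⟩
    rw [← hc]
    simpa using (Cardinal.lift_le.2 h1).trans Cardinal.mk_range_le_lift

end Vale.Agent.Results.P129.MeasurableContinuum
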